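import Vale.Agent.P189.Main

namespace Vale.Agent.Results.P189.NotFixed

open Vale.Agent.P189

theorem result : ∃ (G : Type) (_ : Group G), Countable G ∧ Group.FG G ∧ ¬FixedPrice G := by
  refine ⟨Gam, inferInstance, inferInstance, ?_, fun h => ?_⟩
  · refine Group.fg_iff.2 ⟨Set.range alg.g3, ?_, Set.finite_range _⟩
    rw [← FreeGroup.range_lift_eq_closure, MonoidHom.range_eq_top]
    intro g
    obtain ⟨w, hw⟩ := alg_gen g
    exact ⟨_, hw⟩
  · obtain ⟨β, h1, h2, h3⟩ := main
    exact h3.ne' (h _ _ _ _ _ β h1 h2)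

end Vale.Agent.Results.P189.NotFixed
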